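import Vale.Agent.P265.All
import Vale.Agent.P265.Stm

namespace Vale.Agent.Results.P265.Counterexample

open Vale.Agent.P265.G

theorem result :
    ∃ (M : Type) (_ : TopologicalSpace M) (_ : ChartedSpace E8 M), IsClosedManifold E8 M ∧
      ∃ (Ω : M → Bil E8) (H : ℝ → M → ℝ) (φ : ℝ → M → M),
        IsSymplectic Ω ∧ IsHamFlow Ω H φ ∧ NondegFix E8 (φ 1) ∧
        {x | φ 1 x = x}.encard < stableMorse E8 M ∧
        {x | φ 1 x = x}.encard ≤ 80 ∧ 88 ≤ stableMorse E8 M ∧ stableMorse E8 M < ⊤ := by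
  obtain ⟨M, t, c, h1, h2, h3, h4, Ω, H, φ, a1, a2, a3, a4, a5, a6⟩ := Vale.Agent.P265.mainT
  exact ⟨M, t, c, ⟨h1, h2, h3, h4⟩, Ω, H, φ, a1, a2, a3,
    lt_of_le_of_lt a4 (lt_of_lt_of_le (by norm_num) a5), a4, a5, a6⟩

end Vale.Agent.Results.P265.Counterexample
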